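import Vale.Agent.P072.Strong

namespace Vale.Agent.Results.P072.EndotacticNetworks

open Vale.Agent.P072

/-- Permanence of all endotactic networks, in particular of the weakly reversible ones, with
measurable time-dependent rates with values in `[ε, 1/ε]`, and permanence for constant rates. -/
theorem result (d : ℕ) (hd : 1 ≤ d) (R : Finset (Reaction d)) :
    (WeaklyReversible R → Endotactic R) ∧
    (Endotactic R → ∀ c : Fin d → ℝ, (∀ i, 0 < c i) →
      (∀ k : Reaction d → ℝ, (∀ r ∈ R, 0 < k r) →
        PermanentOn (massAction R k) (positiveClass R c)) ∧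
      ∀ ε : ℝ, 0 < ε → ∃ K : Set (Fin d → ℝ), K ⊆ positiveClass R c ∧ IsCompact K ∧
        ∀ k : Reaction d → ℝ → ℝ, AdmissibleRates R ε k →
          CapturedBy (variableMassAction R k) (positiveClass R c) K) := by
  refine ⟨fun h => h.endotactic, fun hE c hc => ⟨fun k hk => ?_, fun ε hε => ?_⟩⟩
  · exact permanent_of_endotactic d hd R hE k hk c hc
  · exact strong_captured d hd R hE ε hε c hc

end Vale.Agent.Results.P072.EndotacticNetworks
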