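import Vale.Agent.P072.Final

namespace Vale.Agent.Results.P072.Permanence

open Vale.Agent.P072

/-- The permanence conjecture: every weakly reversible mass-action system with positive constant
rates is permanent on every positive stoichiometric class. -/
theorem result (d : ℕ) (hd : 1 ≤ d) (R : Finset (Reaction d)) (hR : WeaklyReversible R)
    (k : Reaction d → ℝ) (hk : ∀ r ∈ R, 0 < k r) (c : Fin d → ℝ) (hc : ∀ i, 0 < c i) :
    PermanentOn (massAction R k) (positiveClass R c) := by
  have h0 : 0 < d := hd
  exact permanent_main d h0 R hR k hk c hc

end Vale.Agent.Results.P072.Permanence
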