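import Vale.Agent.P072.Strong

namespace Vale.Agent.Results.P072.VariableRates

open Vale.Agent.P072

/-- The stronger form of the permanence conjecture: measurable time-dependent rates with values in
`[ε, 1/ε]`; the absorbing compact set does not depend on the rates. -/
theorem result (d : ℕ) (hd : 1 ≤ d) (R : Finset (Reaction d)) (hR : WeaklyReversible R)
    (ε : ℝ) (hε : 0 < ε) (c : Fin d → ℝ) (hc : ∀ i, 0 < c i) :
    ∃ K : Set (Fin d → ℝ), K ⊆ positiveClass R c ∧ IsCompact K ∧
      ∀ k : Reaction d → ℝ → ℝ, AdmissibleRates R ε k →
        CapturedBy (variableMassAction R k) (positiveClass R c) K := by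
  have hE : Endotactic R := hR.endotactic
  exact strong_captured d hd R hE ε hε c hc

end Vale.Agent.Results.P072.VariableRates
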